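import Vale.Agent.P290.R2.H596.All3

open Set Vale.Agent.P290.All Vale.Agent.P290.H805 Vale.Agent.P290.R2.H596
open scoped Manifold ContDiff Topology

/-- Let `F` be a proper family of complex surfaces over a space `T`, with total space `E`, let `t₀`
be a parameter with connected Hausdorff fibre `F_{t₀}`, and say that a complex surface `X` is
*approached* if there are parameters `t` arbitrarily near `t₀` with a surjective holomorphic map
`F_t → X` (for example an isomorphism). No relation between `X` and `F_{t₀}` itself is assumed.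
(1) If `F_{t₀}` is Oka (for example a Kummer surface) and `X` is approached, then for all distinct
points `z_0, ..., z_k` of `ℂ^m`, arbitrary points `x_0, ..., x_k` of `X` and every bounded set `S` of
`ℂ^m` there is a map `g` from `ℂ^m` to `X`, holomorphic at the points of `S`, with `g(z_j) = x_j`.
Let the family carry a continuous relative two-form `vol`, nowhere zero and holomorphic on the
fibres, and let `X` be an approached K3 surface with its holomorphic two-form `X.vol`.
(2) If `F_{t₀}` is Oka, then for all distinct points `z_j` of `ℂ²`, arbitrary points `x_j` of `X`,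
numbers `d_j` and every bounded set `S` of `ℂ²` there is `g : ℂ² → X`, holomorphic at the points of
`S` and at the `z_j`, with `g(z_j) = x_j` and Jacobian determinant `d_j` at `z_j`: the pull back of
the two-form of `X` is `d_j dz₁ ∧ dz₂` at `z_j`.
(3) If every point of `F_{t₀}` is a noncritical point of some holomorphic map from `F_{t₀}` to a
Riemann surface, then for every point `x` of `X` and every bounded set `S` of `ℂ²` there is
`g : ℂ² → X` with `g(0) = x`, holomorphic at the points of `S` and of Jacobian determinant `1` at all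
points of `S`: there `g` is a local biholomorphism which pulls back the two-form to
`dz₁ ∧ dz₂`. -/
theorem Vale.Agent.Results.P290.LargeBalls.result :
    ∀ (T E : Type) [TopologicalSpace T] [TopologicalSpace E] (F : Family T E), IsProperMap F.p →
      ∀ t₀ : T, T2Space (Fib F t₀) → ConnectedSpace (Fib F t₀) →
      (IsOka (Fib F t₀) ∨ IsKummer (Fib F t₀) →
        ∀ (X : Type) [TopologicalSpace X] [ChartedSpace C2 X],
        t₀ ∈ closure {t | ∃ b : Fib F t → X, (∀ y, Hol b y) ∧ Function.Surjective b} →
        ∀ (m k : ℕ) (z : Fin (k + 1) → Fin m → ℂ), Function.Injective z →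
        ∀ (x : Fin (k + 1) → X) (S : Set (Fin m → ℂ)), Bornology.IsBounded S →
        ∃ g : (Fin m → ℂ) → X, (∀ y ∈ S, HolV g y) ∧ ∀ j, g (z j) = x j) ∧
      ∀ vol : E → T × C2 → ℂ, RelForm F vol → ∀ X : K3,
        t₀ ∈ closure {t | ∃ b : Fib F t → X.X, (∀ y, Hol b y) ∧ Function.Surjective b} →
        (IsOka (Fib F t₀) ∨ IsKummer (Fib F t₀) →
          ∀ (k : ℕ) (z : Fin (k + 1) → C2), Function.Injective z → ∀ (x : Fin (k + 1) → X.X)
          (d : Fin (k + 1) → ℂ) (S : Set C2), Bornology.IsBounded S →
          ∃ g : C2 → X.X, (∀ y ∈ S, Hol g y) ∧ ∀ j, Hol g (z j) ∧ g (z j) = x j ∧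
            X.vol (chartAt C2 (x j)) (chartAt C2 (x j) (x j)) *
              (fderiv ℂ (fun y => chartAt C2 (x j) (g y)) (z j)).det = d j) ∧
        ((∀ x : Fib F t₀, ∃ (C : RS) (π : Fib F t₀ → C.C), (∀ y, HolC π y) ∧ ¬ Critical π x) →
          ∀ (x : X.X) (S : Set C2), Bornology.IsBounded S →
          ∃ g : C2 → X.X, g 0 = x ∧ ∀ y ∈ S, Hol g y ∧
            X.vol (chartAt C2 (g y)) (chartAt C2 (g y) (g y)) *
              (fderiv ℂ (fun v => chartAt C2 (g y) (g v)) y).det = 1) := by
  intro T E _ _ F hp t₀ h2 hc
  have h3 : IsOka (Fib F t₀) ∨ IsKummer (Fib F t₀) → IsOka (Fib F t₀) := by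
    rintro (h | h)
    · exact h
    · exact isOka_of_isKummer h
  refine ⟨fun h X _ _ hX m k z hz x S hS => part1 F hp t₀ h2 hc (h3 h) X hX m k z hz x S hS,
    fun vol hvol X hX => ⟨fun h k z hz x d S hS => ?_, fun h x S hS => ?_⟩⟩
  · exact final2 F hp vol hvol t₀ h2 hc (h3 h) X hX k z hz x d S hS
  · exact final3 F hp vol hvol t₀ h2 hc h X hX x S hS
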